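import Vale.Agent.P062.CheckerT
import Vale.Agent.P062.Root
import Vale.Agent.P062.Data.C0
import Vale.Agent.P062.Data.C1
import Vale.Agent.P062.Data.C2
import Vale.Agent.P062.Data.C3
import Vale.Agent.P062.Data.C4
import Vale.Agent.P062.Data.C5
import Vale.Agent.P062.Data.C6
import Vale.Agent.P062.Data.C7

/-!
# The five root patterns, and the win on the empty board
-/

namespace Vale.Agent.P062.Data

theorem check : checkTreeT T T = true :=
  (and_trueT (and_trueT (and_trueT c3_0 c3_4) (and_trueT c3_2 c3_6)) (and_trueT (and_trueT c3_1 c3_5) (and_trueT c3_3 c3_7)))

/-- Root zone 0. -/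
def zone0 : Nat := 470823925777216931925707300835603822531379287790683362615051649036302268969440794200873502616820888373760089554421126236909842221413779443840461290213999875467224555516

theorem root0 : PatT 21 (2 ^ 280) zone0 :=
  patT_of_check check 10486 _ _ _ _ _ (by rfl)

/-- Root zone 1. -/
def zone1 : Nat := 4300309905232738027477149061363704877032915063361357550581337112433466973761934202920402994359804731852792

theorem root1 : PatT 15 (2 ^ 176) zone1 :=
  patT_of_check check 10387 _ _ _ _ _ (by rfl)

/-- Root zone 2. -/
def zone2 : Nat := 268769369310604523633500775363273218237454969114751708179810695987002214890746522002468576180932599351288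

theorem root2 : PatT 15 (2 ^ 176) zone2 :=
  patT_of_check check 10388 _ _ _ _ _ (by rfl)

/-- Root zone 3. -/
def zone3 : Nat := 921377545960434615020412293760517713600248491432682197400936366579150828941491529497094589003756884432796185573471151404019750000036409316549266249135450039890493376

theorem root3 : PatT 20 (2 ^ 280) zone3 :=
  patT_of_check check 10485 _ _ _ _ _ (by rfl)

/-- Root zone 4. -/
def zone4 : Nat := 1702206004321608098334895790270010603856428781165545497247387378861601261140833416273817749437995403968632

theorem root4 : PatT 14 (2 ^ 176) zone4 :=
  patT_of_check check 10338 _ _ _ _ _ (by rfl)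

/-- The roots: index of the core cell and zone. -/
def roots : List (Nat × Nat) := [(280, zone0), (176, zone1), (176, zone2), (280, zone3), (176, zone4)]

theorem roots_cover : coverOk roots = true := by decide +kernel

theorem winsIn_empty : WinsIn 22 ∅ ∅ := by
  refine winsIn_of_roots (d := 21) (m := 578) (by norm_num) roots ?_ ?_ (by simp [roots]) roots_cover
  · intro cz h
    simp only [roots, List.mem_cons, List.not_mem_nil, or_false] at h
    rcases h with rfl | rfl | rfl | rfl | rfl
    · exact root0.mono (by norm_num)
    · exact root1.mono (by norm_num)
    · exact root2.mono (by norm_num)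
    · exact root3.mono (by norm_num)
    · exact root4.mono (by norm_num)
  · have h : ∀ cz ∈ roots, Nat.ble (cz.2 + 1) (2 ^ 578) = true := by decide +kernel
    intro cz hcz
    exact Nat.le_of_ble_eq_true (h cz hcz)

end Vale.Agent.P062.Data
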