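import Vale.Agent.P062.Data.D0
import Vale.Agent.P062.Data.D1
import Vale.Agent.P062.Data.D2
import Vale.Agent.P062.Data.D3
import Vale.Agent.P062.Data.D4
import Vale.Agent.P062.Data.D5
import Vale.Agent.P062.Data.D6
import Vale.Agent.P062.Data.D7

namespace Vale.Agent.P062.Data

def T : TreeT := (.node (.node (.node t3_0 t3_4) (.node t3_2 t3_6)) (.node (.node t3_1 t3_5) (.node t3_3 t3_7)))

end Vale.Agent.P062.Data
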